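import Vale.Agent.P150.CoreD

open MeasureTheory Filter Topology

namespace Vale.Agent.Results.P150.HighTemp

open Vale.Agent.P150

theorem result (β : ℝ) (h0 : 0 < β) (h1 : β < 1) :
    ∃ C c : ℝ, 0 < C ∧ 0 < c ∧ Tendsto (fun n : ℕ => disorder n
      {g | ¬ (tmix β g ≤ ENNReal.ofReal (C * Real.log n) ∧ c ≤ gap β g ∧ gap β g ≤ 1)})
      atTop (𝓝 0) := by
  obtain ⟨C, hC, h⟩ := disorder_main h0 h1
  refine ⟨8 * C, 1 / (16 * C), by positivity, by positivity,
    tendsto_of_tendsto_of_tendsto_of_le_of_le' tendsto_const_nhds h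
      (Eventually.of_forall fun _ => zero_le) ?_⟩
  filter_upwards [of_dist1 hC] with n hn
  exact measure_mono fun g hg hp => hg (hn β g hp)

end Vale.Agent.Results.P150.HighTemp
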