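import Vale.Agent.P150.LowB

open MeasureTheory Filter Topology

namespace Vale.Agent.Results.P150.HighTempSharp

open Vale.Agent.P150

theorem result (β : ℝ) (h0 : 0 < β) (h1 : β < 1) :
    ∃ c C : ℝ, 0 < c ∧ 0 < C ∧ Tendsto (fun n : ℕ => disorder n
      {g | ¬ (ENNReal.ofReal (c * Real.log n) ≤ tmix β g ∧
        tmix β g ≤ ENNReal.ofReal (C * Real.log n) ∧ c ≤ gap β g ∧ gap β g ≤ 1)})
      atTop (𝓝 0) := by
  obtain ⟨C, hC, h⟩ := disorder_main h0 h1
  obtain ⟨c, hc, hl⟩ := Low.tmix_ge 6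
  have h2 := h.add (Low.disorder_opn h0 h1)
  rw [add_zero] at h2
  refine ⟨min c (1 / (16 * C)), 8 * C, lt_min hc (by positivity), by positivity,
    tendsto_of_tendsto_of_tendsto_of_le_of_le' tendsto_const_nhds h2
      (Eventually.of_forall fun _ => zero_le) ?_⟩
  filter_upwards [of_dist1 hC, hl] with n hn hn'
  refine le_trans (measure_mono fun g hg => ?_) (measure_union_le _ _)
  by_contra hc'
  simp only [Set.mem_union, Set.mem_ofPred_eq, not_or, not_not] at hc'
  obtain ⟨a1, a2, a3⟩ := hn β g hc'.1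
  exact hg ⟨le_trans (ENNReal.ofReal_le_ofReal (mul_le_mul_of_nonneg_right (min_le_left _ _)
    (Real.log_natCast_nonneg n))) (hn' β g hc'.2), a1, (min_le_right _ _).trans a2, a3⟩

end Vale.Agent.Results.P150.HighTempSharp
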